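import Vale.Agent.P146.H501.Tail

/-!
# P146: the tail of the overlap, asymptotic form
-/

open MeasureTheory ProbabilityTheory

namespace Vale.Agent.P146.H501

open Vale.Agent.P146 Vale.Agent.P146.Ub.Cv Vale.Agent.P146.H605

lemma rpow_u {m : ℝ} (hm : 0 < m) (k : ℕ) (a : ℝ) (h : a = k / 40) :
    m ^ a = (m ^ (1 / 40 : ℝ)) ^ k := by
  rw [← Real.rpow_mul_natCast hm.le, h]
  congr 1
  ring

/-- the numerical inequalities -/
lemma num_ev {β b C : ℝ} (hβ : 1 < β) (hb : 0 < b) : ∃ U : ℝ, 1 ≤ U ∧ ∀ u : ℝ, U ≤ u →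
    β ^ 2 / 8 + u ^ 35 + |C| * u ^ 34 + u ^ 32 + Real.log 4 ≤ β ^ 2 / 8 * u ^ 36 ∧
    u ^ 32 + Real.log 4 ≤ b / 4 * u ^ 34 ∧ C * u ^ 35 ≤ u ^ 36 / 2 := by
  have h4 : 0 ≤ Real.log 4 := Real.log_nonneg (by norm_num)
  have hC := abs_nonneg C
  have hβ2 : 0 < β ^ 2 / 8 := by positivity
  obtain ⟨A, hA⟩ : ∃ A, A = (β ^ 2 / 8 + 2 + |C| + Real.log 4) / (β ^ 2 / 8) := ⟨_, rfl⟩
  obtain ⟨B, hB⟩ : ∃ B, B = 4 * (1 + Real.log 4) / b := ⟨_, rfl⟩
  have hA0 : 0 ≤ A := by rw [hA]; positivity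
  have hB0 : 0 ≤ B := by rw [hB]; positivity
  refine ⟨1 + A + B + 2 * |C|, by linarith, fun u hu => ?_⟩
  have hu1 : 1 ≤ u := by linarith
  have hu0 : 0 < u := by linarith
  have e34 : 1 ≤ u ^ 34 := one_le_pow₀ hu1
  have e32 : 1 ≤ u ^ 32 := one_le_pow₀ hu1
  have e35 : 1 ≤ u ^ 35 := one_le_pow₀ hu1
  have m1 : u ^ 34 ≤ u ^ 35 := pow_le_pow_right₀ hu1 (by norm_num)
  have m2 : u ^ 32 ≤ u ^ 35 := pow_le_pow_right₀ hu1 (by norm_num)
  have p36 : u ^ 36 = u * u ^ 35 := by ring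
  have p34 : u ^ 34 = u ^ 2 * u ^ 32 := by ring
  refine ⟨?_, ?_, ?_⟩
  · have h1 : β ^ 2 / 8 * A = β ^ 2 / 8 + 2 + |C| + Real.log 4 := by
      rw [hA]; field_simp
    have h2 : β ^ 2 / 8 * A ≤ β ^ 2 / 8 * u := mul_le_mul_of_nonneg_left (by linarith) hβ2.le
    have h3 : (β ^ 2 / 8 + 2 + |C| + Real.log 4) * u ^ 35 ≤ β ^ 2 / 8 * u * u ^ 35 :=
      mul_le_mul_of_nonneg_right (by linarith) (by linarith)
    have h5 : |C| * u ^ 34 ≤ |C| * u ^ 35 := mul_le_mul_of_nonneg_left m1 hC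
    have h6 : Real.log 4 ≤ Real.log 4 * u ^ 35 := le_mul_of_one_le_right h4 e35
    have h7 : β ^ 2 / 8 ≤ β ^ 2 / 8 * u ^ 35 := le_mul_of_one_le_right hβ2.le e35
    rw [p36]
    nlinarith
  · have h1 : b / 4 * B = 1 + Real.log 4 := by
      rw [hB]; field_simp
    have hBu : B ≤ u ^ 2 := by nlinarith
    have h2 : b / 4 * B ≤ b / 4 * u ^ 2 := mul_le_mul_of_nonneg_left hBu (by positivity)
    have h3 : (1 + Real.log 4) * u ^ 32 ≤ b / 4 * u ^ 2 * u ^ 32 :=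
      mul_le_mul_of_nonneg_right (by linarith) (by linarith)
    have h6 : Real.log 4 ≤ Real.log 4 * u ^ 32 := le_mul_of_one_le_right h4 e32
    rw [p34]
    nlinarith
  · have h1 : C ≤ u / 2 := by
      have := le_abs_self C
      linarith
    have h3 : C * u ^ 35 ≤ u / 2 * u ^ 35 := mul_le_mul_of_nonneg_right h1 (by linarith)
    rw [p36]
    linarith

/-- the tail, from the facts about the free energy -/
theorem tail_of {β p C b : ℝ} (hβ : 1 < β) (hb : 0 < b)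
    (hall : ∀ n : ℕ, 1 ≤ n →
      (∀ x : ℝ, 0 < x → x ≤ 1 →
        ∫ g, Real.exp (x * (freeEnergy n β g - n * p)) ∂(disorder n) ≤ Real.exp (C * n * x ^ 6)) ∧
      (∀ t : ℝ, 0 ≤ t →
        (disorder n).real {g | freeEnergy n β g ≤ ∫ g, freeEnergy n β g ∂(disorder n) - t} ≤
          Real.exp (-(b * t ^ 2 / (n : ℝ) ^ (19 / 20 : ℝ)))) ∧
      n * p - C * (n : ℝ) ^ (7 / 8 : ℝ) ≤ ∫ g, freeEnergy n β g ∂(disorder n)) :
    ∃ N : ℕ, ∀ n : ℕ, N ≤ n → ∀ t δ : ℝ, 0 ≤ t → t ≤ 1 →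
      (n : ℝ) ^ (-(1 / 20) : ℝ) ≤ (1 - t) * δ →
      gm n β (big n δ) t ≤ Real.exp (-(n : ℝ) ^ (4 / 5 : ℝ)) := by
  obtain ⟨U, hU1, hU⟩ := num_ev (C := C) hβ hb
  have hev : ∀ᶠ n : ℕ in Filter.atTop, U ≤ (n : ℝ) ^ (1 / 40 : ℝ) :=
    ((tendsto_rpow_atTop (by norm_num : (0 : ℝ) < 1 / 40)).comp
      tendsto_natCast_atTop_atTop).eventually_ge_atTop U
  obtain ⟨N, hN⟩ := Filter.eventually_atTop.1 hev
  refine ⟨max N 1, fun n hn t δ ht0 ht1 hδ => ?_⟩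
  have hn1 : 1 ≤ n := (le_max_right _ _).trans hn
  obtain ⟨m, hm⟩ : ∃ m : ℝ, m = n := ⟨_, rfl⟩
  have hm1 : 1 ≤ m := by rw [hm]; exact_mod_cast hn1
  have hm0 : 0 < m := by linarith
  obtain ⟨u, hu⟩ : ∃ u : ℝ, u = m ^ (1 / 40 : ℝ) := ⟨_, rfl⟩
  have huU : U ≤ u := by rw [hu, hm]; exact hN n ((le_max_left _ _).trans hn)
  have hu1 : 1 ≤ u := hU1.trans huU
  have hu0 : 0 < u := by linarith
  obtain ⟨k1, k2, k3⟩ := hU u huU
  obtain ⟨q1, q2, q3⟩ := hall n hn1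
  have em : m = u ^ 40 := by
    have := rpow_u hm0 40 1 (by norm_num)
    rw [Real.rpow_one] at this
    rw [hu]; exact this
  have e78 : m ^ (7 / 8 : ℝ) = u ^ 35 := by rw [hu]; exact rpow_u hm0 35 _ (by norm_num)
  have e1920 : m ^ (19 / 20 : ℝ) = u ^ 38 := by rw [hu]; exact rpow_u hm0 38 _ (by norm_num)
  have e45 : m ^ (4 / 5 : ℝ) = u ^ 32 := by rw [hu]; exact rpow_u hm0 32 _ (by norm_num)
  have e20 : m ^ (-(1 / 20) : ℝ) = (u ^ 2)⁻¹ := by
    rw [Real.rpow_neg hm0.le, rpow_u hm0 2 (1 / 20) (by norm_num), hu]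
  rw [← hm] at hδ q2 q3 ⊢
  rw [e20] at hδ
  rw [e78] at q3
  rw [e1920] at q2
  rw [e45]
  set x := u⁻¹ with hx
  have hx0 : 0 < x := inv_pos.2 hu0
  have hx1 : x ≤ 1 := inv_le_one_of_one_le₀ hu1
  have hxu : x * u = 1 := inv_mul_cancel₀ hu0.ne'
  have q1' := q1 x hx0 hx1
  rw [← hm] at q1'
  have key := tail_bound n β hn1 (κ := x / 2) (by linarith) (by linarith) ht0 ht1 δ
    (m * p - u ^ 36)
  rw [← hm] at key
  have e0 : ∫ g, Real.exp (2 * (x / 2) * freeEnergy n β g) ∂(disorder n) =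
      Real.exp (x * (m * p)) *
        ∫ g, Real.exp (x * (freeEnergy n β g - m * p)) ∂(disorder n) := by
    rw [← integral_const_mul]
    refine integral_congr_ae (Filter.Eventually.of_forall fun g => ?_)
    simp only
    rw [← Real.exp_add]
    congr 1
    ring
  rw [e0] at key
  -- first term
  have t1 : Real.exp ((x / 2) ^ 2 * β ^ 2 * (1 - t) / 2 * (1 - m * δ) -
        2 * (x / 2) * (m * p - u ^ 36)) * (Real.exp (x * (m * p)) *
        ∫ g, Real.exp (x * (freeEnergy n β g - m * p)) ∂(disorder n)) ≤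
      Real.exp (-u ^ 32) / 4 := by
    have h1 : Real.exp ((x / 2) ^ 2 * β ^ 2 * (1 - t) / 2 * (1 - m * δ) -
        2 * (x / 2) * (m * p - u ^ 36)) * (Real.exp (x * (m * p)) *
        ∫ g, Real.exp (x * (freeEnergy n β g - m * p)) ∂(disorder n)) ≤
        Real.exp ((x / 2) ^ 2 * β ^ 2 * (1 - t) / 2 * (1 - m * δ) -
        2 * (x / 2) * (m * p - u ^ 36)) * (Real.exp (x * (m * p)) *
        Real.exp (C * m * x ^ 6)) := by gcongr
    refine h1.trans ?_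
    have h4 : Real.exp (-u ^ 32) / 4 = Real.exp (-u ^ 32 - Real.log 4) := by
      rw [Real.exp_sub, Real.exp_log (by norm_num)]
    rw [← Real.exp_add, ← Real.exp_add, h4]
    refine Real.exp_le_exp.2 ?_
    have x2 : x ^ 2 = (u ^ 2)⁻¹ := by rw [hx, inv_pow]
    have f1 : x * u ^ 36 = u ^ 35 := by
      calc x * u ^ 36 = (x * u) * u ^ 35 := by ring
        _ = _ := by rw [hxu, one_mul]
    have f2 : m * x ^ 6 = u ^ 34 := by
      rw [em]
      calc u ^ 40 * x ^ 6 = (x * u) ^ 6 * u ^ 34 := by ring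
        _ = _ := by rw [hxu]; ring
    have f3 : x ^ 2 * m * x ^ 2 = u ^ 36 := by
      rw [em]
      calc x ^ 2 * u ^ 40 * x ^ 2 = (x * u) ^ 4 * u ^ 36 := by ring
        _ = _ := by rw [hxu]; ring
    have f4 : x ^ 2 * m * x ^ 2 ≤ x ^ 2 * m * ((1 - t) * δ) := by
      rw [← x2] at hδ
      exact mul_le_mul_of_nonneg_left hδ (by positivity)
    have f5 : C * m * x ^ 6 ≤ |C| * u ^ 34 := by
      rw [mul_assoc, f2]
      exact mul_le_mul_of_nonneg_right (le_abs_self C) (by positivity)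
    have f6 : x ^ 2 * (1 - t) ≤ 1 := by
      have : x ^ 2 ≤ 1 := pow_le_one₀ hx0.le hx1
      exact mul_le_one₀ this (by linarith) (by linarith)
    have f7 : β ^ 2 / 8 * (x ^ 2 * (1 - t)) ≤ β ^ 2 / 8 * 1 :=
      mul_le_mul_of_nonneg_left f6 (by positivity)
    have f8 : β ^ 2 / 8 * u ^ 36 ≤ β ^ 2 / 8 * (x ^ 2 * m * ((1 - t) * δ)) := by
      rw [← f3]
      exact mul_le_mul_of_nonneg_left f4 (by positivity)
    have f9 : (x / 2) ^ 2 * β ^ 2 * (1 - t) / 2 * (1 - m * δ) -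
        2 * (x / 2) * (m * p - u ^ 36) + (x * (m * p) + C * m * x ^ 6) =
        β ^ 2 / 8 * (x ^ 2 * (1 - t)) - β ^ 2 / 8 * (x ^ 2 * m * ((1 - t) * δ)) +
          x * u ^ 36 + C * m * x ^ 6 := by ring
    rw [f9, f1]
    linarith
  -- second term
  have t2 : (disorder n).real {g | freeEnergy n β g ≤ m * p - u ^ 36} ≤
      Real.exp (-u ^ 32) / 4 := by
    obtain ⟨E, hE⟩ : ∃ E, E = ∫ g, freeEnergy n β g ∂(disorder n) := ⟨_, rfl⟩
    rw [← hE] at q2 q3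
    have h1 : {g | freeEnergy n β g ≤ m * p - u ^ 36} ⊆
        {g | freeEnergy n β g ≤ E - u ^ 36 / 2} := by
      intro g hg
      have hg' : freeEnergy n β g ≤ m * p - u ^ 36 := hg
      show freeEnergy n β g ≤ E - u ^ 36 / 2
      linarith
    haveI : IsProbabilityMeasure (disorder n) :=
      inferInstanceAs (IsProbabilityMeasure (gpi (Pair n)))
    have h2 := (measureReal_mono (μ := disorder n) h1 (measure_ne_top _ _)).trans
      (q2 (u ^ 36 / 2) (by positivity))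
    refine h2.trans ?_
    have h4 : Real.exp (-u ^ 32) / 4 = Real.exp (-u ^ 32 - Real.log 4) := by
      rw [Real.exp_sub, Real.exp_log (by norm_num)]
    rw [h4]
    refine Real.exp_le_exp.2 ?_
    have h5 : b * (u ^ 36 / 2) ^ 2 / u ^ 38 = b / 4 * u ^ 34 := by
      field_simp
      ring
    rw [h5]
    linarith
  have hpos : 0 < Real.exp (-u ^ 32) := Real.exp_pos _
  linarith

end Vale.Agent.P146.H501
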