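import Vale.Agent.P146.Bdl.B19

/-!
# P146: interpolation for the moments of a finite Gaussian partition function
-/

open MeasureTheory ProbabilityTheory

namespace Vale.Agent.P146.H501

open Vale.Agent.P146

section gen

variable {ι S : Type*} [Fintype ι] [Fintype S] [Nonempty S]

/-- the power `κ` of the partition function -/
noncomputable def zp (κ : ℝ) (a : S → ι → ℝ) (c : S → ℝ) (g : ι → ℝ) : ℝ :=
  Real.exp (κ * Real.log (zz a c g))

omit [Nonempty S] in
lemma zp_pos (κ : ℝ) (a : S → ι → ℝ) (c : S → ℝ) (g : ι → ℝ) : 0 < zp κ a c g := Real.exp_pos _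

lemma zp_cont (κ : ℝ) (a : S → ι → ℝ) (c : S → ℝ) : Continuous (zp κ a c) := by
  unfold zp
  exact Real.continuous_exp.comp ((log_zz_cont a c).const_mul κ)

/-- crude bound, uniform in the coefficients -/
lemma zp_le (κ : ℝ) {a : S → ι → ℝ} {c : S → ℝ} {A C : ℝ} (ha : ∀ s i, |a s i| ≤ A)
    (hc : ∀ s, |c s| ≤ C) (g : ι → ℝ) :
    zp κ a c g ≤ Real.exp (|κ| * (Fintype.card S * C + Real.log (Fintype.card S))) *
      Real.exp (|κ| * (Fintype.card S * (Fintype.card ι * A)) * ∑ i, |g i|) := by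
  have h0 := log_zz_bound a c g
  have hS := sum_abs_nonneg g
  have h1 : ∑ s, ∑ i, |a s i| ≤ Fintype.card S * (Fintype.card ι * A) := by
    calc ∑ s, ∑ i, |a s i| ≤ ∑ _s : S, ∑ _i : ι, A :=
          Finset.sum_le_sum fun s _ => Finset.sum_le_sum fun i _ => ha s i
      _ = _ := by simp
  have h2 : ∑ s, |c s| ≤ Fintype.card S * C := by
    calc ∑ s, |c s| ≤ ∑ _s : S, C := Finset.sum_le_sum fun s _ => hc s
      _ = _ := by simp
  unfold zp
  rw [← Real.exp_add]
  refine Real.exp_le_exp.2 ?_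
  have h3 : κ * Real.log (zz a c g) ≤ |κ| * |Real.log (zz a c g)| := by
    rw [← abs_mul]; exact le_abs_self _
  have h4 : |Real.log (zz a c g)| ≤ (Fintype.card S * (Fintype.card ι * A)) * ∑ i, |g i| +
      Fintype.card S * C + Real.log (Fintype.card S) := by
    have := mul_le_mul_of_nonneg_right h1 hS
    linarith
  have h5 := mul_le_mul_of_nonneg_left h4 (abs_nonneg κ)
  linarith

lemma zp_dom (κ : ℝ) (a : S → ι → ℝ) (c : S → ℝ) : Dom (zp κ a c) := by
  set A := ∑ s, ∑ i, |a s i| with hA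
  set C := ∑ s, |c s| with hC
  have ha : ∀ s i, |a s i| ≤ A := fun s i => by
    calc |a s i| ≤ ∑ i, |a s i| := Finset.single_le_sum (f := fun i => |a s i|)
          (fun i _ => abs_nonneg _) (Finset.mem_univ i)
      _ ≤ _ := Finset.single_le_sum (f := fun s => ∑ i, |a s i|)
          (fun i _ => Finset.sum_nonneg fun _ _ => abs_nonneg _) (Finset.mem_univ s)
  have hc : ∀ s, |c s| ≤ C := fun s => Finset.single_le_sum (f := fun s => |c s|)
    (fun i _ => abs_nonneg _) (Finset.mem_univ s)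
  have hA0 : 0 ≤ A := Finset.sum_nonneg fun _ _ => Finset.sum_nonneg fun _ _ => abs_nonneg _
  refine ⟨zp_cont κ a c, Real.exp (|κ| * (Fintype.card S * C + Real.log (Fintype.card S))),
    |κ| * (Fintype.card S * (Fintype.card ι * A)), (Real.exp_pos _).le, by positivity,
    fun g => ?_⟩
  rw [abs_of_pos (zp_pos κ a c g)]
  exact zp_le κ ha hc g

variable [DecidableEq ι]

lemma hasDerivAt_zp (κ : ℝ) (a : S → ι → ℝ) (c : S → ℝ) (g : ι → ℝ) (e : ι) (t : ℝ) :
    HasDerivAt (fun t => zp κ a c (Function.update g e t))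
      (zp κ a c (Function.update g e t) *
        (κ * gav a c (fun s => a s e) (Function.update g e t))) t :=
  ((hasDerivAt_log_zz a c g e t).const_mul κ).exp

/-- integration by parts for the tilted Gibbs average -/
lemma ibp_zp (κ : ℝ) (a : S → ι → ℝ) (c : S → ℝ) (f : S → ℝ) (e : ι) :
    ∫ g, g e * (zp κ a c g * gav a c f g) ∂(gpi ι) =
      ∫ g, zp κ a c g * (gav a c (fun s => f s * a s e) g -
        (1 - κ) * (gav a c f g * gav a c (fun s => a s e) g)) ∂(gpi ι) := by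
  refine ibp e ((zp_dom κ a c).mul (gav_dom a c f)) ((zp_dom κ a c).mul
    ((gav_dom a c _).sub (((gav_dom a c f).mul (gav_dom a c _)).const_mul _))) fun g t => ?_
  refine ((hasDerivAt_zp κ a c g e t).mul (hasDerivAt_gav a c f g e t)).congr_deriv ?_
  ring

omit [DecidableEq ι] in
/-- derivative along a path of coefficients -/
lemma hasDerivAt_path (κ : ℝ) {a : ℝ → S → ι → ℝ} {c : ℝ → S → ℝ} {a' : S → ι → ℝ}
    {c' : S → ℝ} {θ : ℝ} (ha : ∀ s i, HasDerivAt (fun θ => a θ s i) (a' s i) θ)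
    (hc : ∀ s, HasDerivAt (fun θ => c θ s) (c' s) θ) (g : ι → ℝ) :
    HasDerivAt (fun θ => zp κ (a θ) (c θ) g) (κ * (zp κ (a θ) (c θ) g *
      (∑ i, g i * gav (a θ) (c θ) (fun s => a' s i) g + gav (a θ) (c θ) c' g))) θ := by
  have h1 : ∀ s, HasDerivAt (fun θ => wt (a θ) (c θ) g s)
      (wt (a θ) (c θ) g s * (∑ i, a' s i * g i + c' s)) θ := by
    intro s
    unfold wt
    refine HasDerivAt.exp ?_
    exact (HasDerivAt.fun_sum fun i _ => (ha s i).mul_const (g i)).add (hc s)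
  have h2 : HasDerivAt (fun θ => zz (a θ) (c θ) g)
      (∑ s, wt (a θ) (c θ) g s * (∑ i, a' s i * g i + c' s)) θ := by
    unfold zz
    exact HasDerivAt.fun_sum fun s _ => h1 s
  have h3 := ((h2.log (zz_pos (a θ) (c θ) g).ne').const_mul κ).exp
  refine h3.congr_deriv ?_
  have h4 : (∑ s, wt (a θ) (c θ) g s * (∑ i, a' s i * g i + c' s)) / zz (a θ) (c θ) g =
      ∑ i, g i * gav (a θ) (c θ) (fun s => a' s i) g + gav (a θ) (c θ) c' g := by
    have e1 : ∑ i, g i * gav (a θ) (c θ) (fun s => a' s i) g + gav (a θ) (c θ) c' g =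
        gav (a θ) (c θ) (fun s => ∑ i, g i * a' s i + c' s) g := by
      rw [gav_add, gav_sum]
      congr 1
      refine Finset.sum_congr rfl fun i _ => ?_
      rw [gav_const_mul]
    rw [e1]
    unfold gav
    congr 1
    refine Finset.sum_congr rfl fun s _ => ?_
    rw [mul_comm]
    congr 2
    exact Finset.sum_congr rfl fun i _ => mul_comm _ _
  rw [h4]
  unfold zp
  ring

/-- the integrand of the derivative -/
noncomputable def dz (κ : ℝ) (a : S → ι → ℝ) (c : S → ℝ) (a' : S → ι → ℝ) (c' : S → ℝ)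
    (g : ι → ℝ) : ℝ :=
  κ * (zp κ a c g * (∑ i, g i * gav a c (fun s => a' s i) g + gav a c c' g))

/-- the bracket of the derivative after integration by parts -/
noncomputable def br (κ : ℝ) (a : S → ι → ℝ) (c : S → ℝ) (a' : S → ι → ℝ) (c' : S → ℝ)
    (g : ι → ℝ) : ℝ :=
  gav a c (fun s => ∑ i, a' s i * a s i + c' s) g -
    (1 - κ) * ∑ i, gav a c (fun s => a' s i) g * gav a c (fun s => a s i) g

omit [DecidableEq ι] in
lemma dz_dom (κ : ℝ) (a : S → ι → ℝ) (c : S → ℝ) (a' : S → ι → ℝ) (c' : S → ℝ) :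
    Dom (dz κ a c a' c') := by
  unfold dz
  exact ((zp_dom κ a c).mul ((Dom.sum _ fun i _ => (Dom.coord i).mul (gav_dom a c _)).add
    (gav_dom a c c'))).const_mul κ

omit [DecidableEq ι] in
lemma br_dom (κ : ℝ) (a : S → ι → ℝ) (c : S → ℝ) (a' : S → ι → ℝ) (c' : S → ℝ) :
    Dom (br κ a c a' c') := by
  unfold br
  exact (gav_dom a c _).sub ((Dom.sum _ fun i _ => (gav_dom a c _).mul
    (gav_dom a c _)).const_mul _)

lemma int_dz (κ : ℝ) (a : S → ι → ℝ) (c : S → ℝ) (a' : S → ι → ℝ) (c' : S → ℝ) :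
    ∫ g, dz κ a c a' c' g ∂(gpi ι) = κ * ∫ g, zp κ a c g * br κ a c a' c' g ∂(gpi ι) := by
  have d0 := zp_dom κ a c
  have d1 : ∀ i, Dom (fun g : ι → ℝ => g i * (zp κ a c g * gav a c (fun s => a' s i) g)) :=
    fun i => (Dom.coord i).mul (d0.mul (gav_dom a c _))
  have d2 : Dom (fun g : ι → ℝ => zp κ a c g * gav a c c' g) := d0.mul (gav_dom a c c')
  have d3 : ∀ i, Dom (fun g : ι → ℝ => zp κ a c g * (gav a c (fun s => a' s i * a s i) g -
        (1 - κ) * (gav a c (fun s => a' s i) g * gav a c (fun s => a s i) g))) := fun i =>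
    d0.mul ((gav_dom a c _).sub (((gav_dom a c _).mul (gav_dom a c _)).const_mul _))
  unfold dz
  rw [integral_const_mul]
  congr 1
  have e1 : ∀ g : ι → ℝ, zp κ a c g * (∑ i, g i * gav a c (fun s => a' s i) g +
      gav a c c' g) = ∑ i, g i * (zp κ a c g * gav a c (fun s => a' s i) g) +
        zp κ a c g * gav a c c' g := by
    intro g
    rw [mul_add, Finset.mul_sum]
    congr 1
    exact Finset.sum_congr rfl fun i _ => by ring
  simp_rw [e1]
  rw [int_add (Dom.sum _ fun i _ => d1 i) d2, int_sum _ fun i _ => d1 i]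
  have e2 : ∀ i, ∫ g, g i * (zp κ a c g * gav a c (fun s => a' s i) g) ∂(gpi ι) =
      ∫ g, zp κ a c g * (gav a c (fun s => a' s i * a s i) g -
        (1 - κ) * (gav a c (fun s => a' s i) g * gav a c (fun s => a s i) g)) ∂(gpi ι) :=
    fun i => ibp_zp κ a c _ i
  simp_rw [e2]
  rw [← int_sum _ fun i _ => d3 i, ← int_add (Dom.sum _ fun i _ => d3 i) d2]
  refine integral_congr_ae (Filter.Eventually.of_forall fun g => ?_)
  simp only
  unfold br
  rw [gav_add, gav_sum, ← Finset.mul_sum, ← mul_add, Finset.sum_sub_distrib, Finset.mul_sum]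
  ring

/-- derivative of the moment along a path -/
theorem hasDerivAt_moment (κ : ℝ) {a a' : ℝ → S → ι → ℝ} {c c' : ℝ → S → ℝ} {A A' C C' : ℝ}
    (ha : ∀ θ s i, HasDerivAt (fun θ => a θ s i) (a' θ s i) θ)
    (hc : ∀ θ s, HasDerivAt (fun θ => c θ s) (c' θ s) θ)
    (hA : ∀ θ s i, |a θ s i| ≤ A) (hA' : ∀ θ s i, |a' θ s i| ≤ A')
    (hC : ∀ θ s, |c θ s| ≤ C) (hC' : ∀ θ s, |c' θ s| ≤ C') (θ : ℝ) :
    HasDerivAt (fun θ => ∫ g, zp κ (a θ) (c θ) g ∂(gpi ι))
      (κ * ∫ g, zp κ (a θ) (c θ) g * br κ (a θ) (c θ) (a' θ) (c' θ) g ∂(gpi ι)) θ := by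
  rw [← int_dz]
  set M := Real.exp (|κ| * (Fintype.card S * C + Real.log (Fintype.card S))) with hM
  set K := |κ| * (Fintype.card S * (Fintype.card ι * |A|)) with hK
  have hK0 : 0 ≤ K := by positivity
  have hbd : ∀ θ g, zp κ (a θ) (c θ) g ≤ M * Real.exp (K * ∑ i, |g i|) := fun θ g =>
    zp_le κ (fun s i => (hA θ s i).trans (le_abs_self A)) (hC θ) g
  have key := hasDerivAt_integral_of_dominated_loc_of_deriv_le (μ := gpi ι) (𝕜 := ℝ)
    (F := fun θ (g : ι → ℝ) => zp κ (a θ) (c θ) g)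
    (F' := fun θ g => dz κ (a θ) (c θ) (a' θ) (c' θ) g) (x₀ := θ)
    (s := Metric.ball θ 1)
    (bound := fun g => |κ| * ((M * Real.exp (K * ∑ j, |g j|)) * (|A'| * ∑ j, |g j| + |C'|)))
    (Metric.ball_mem_nhds θ one_pos)
    (Filter.Eventually.of_forall fun y => (zp_cont κ (a y) (c y)).aestronglyMeasurable)
    (zp_dom κ (a θ) (c θ)).integrable
    (dz_dom κ (a θ) (c θ) (a' θ) (c' θ)).cont.aestronglyMeasurable
    (Filter.Eventually.of_forall fun g y _ => by
      rw [Real.norm_eq_abs]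
      unfold dz
      rw [abs_mul, abs_mul, abs_of_pos (zp_pos κ (a y) (c y) g)]
      have hS := sum_abs_nonneg g
      have q1 : |∑ i, g i * gav (a y) (c y) (fun s => a' y s i) g + gav (a y) (c y) (c' y) g| ≤
          |A'| * ∑ j, |g j| + |C'| := by
        refine (abs_add_le _ _).trans (add_le_add ?_ ?_)
        · refine (Finset.abs_sum_le_sum_abs _ _).trans ?_
          rw [Finset.mul_sum]
          refine Finset.sum_le_sum fun i _ => ?_
          rw [abs_mul, mul_comm]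
          exact mul_le_mul_of_nonneg_right (abs_gav_le _ _
            (fun s => (hA' y s i).trans (le_abs_self A')) g) (abs_nonneg _)
        · exact abs_gav_le _ _ (fun s => (hC' y s).trans (le_abs_self C')) g
      exact mul_le_mul_of_nonneg_left (mul_le_mul (hbd y g) q1 (abs_nonneg _)
        (by positivity)) (abs_nonneg κ))
    (by
      have hd : Dom (fun g : ι → ℝ =>
          |κ| * ((M * Real.exp (K * ∑ j, |g j|)) * (|A'| * ∑ j, |g j| + |C'|))) := by
        have d1 : Dom (fun g : ι → ℝ => M * Real.exp (K * ∑ i, |g i|)) := by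
          refine ⟨by fun_prop, M, K, (Real.exp_pos _).le, hK0, fun g => ?_⟩
          rw [abs_of_nonneg (by positivity)]
        have d2 : Dom (fun g : ι → ℝ => ∑ i, |g i|) := by
          refine ⟨by fun_prop, 1, 1, zero_le_one, zero_le_one, fun g => ?_⟩
          rw [abs_of_nonneg (sum_abs_nonneg g), one_mul, one_mul]
          have := Real.add_one_le_exp (∑ i, |g i|)
          linarith
        exact (d1.mul ((d2.const_mul |A'|).add (Dom.const _))).const_mul |κ|
      exact hd.integrable)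
    (Filter.Eventually.of_forall fun g y _ => hasDerivAt_path κ (ha y) (hc y) g)
  exact key.2

/-- the interpolation inequality -/
theorem moment_le (κ : ℝ) (hκ : 0 ≤ κ) {a a' : ℝ → S → ι → ℝ} {c c' : ℝ → S → ℝ}
    {A A' C C' : ℝ}
    (ha : ∀ θ s i, HasDerivAt (fun θ => a θ s i) (a' θ s i) θ)
    (hc : ∀ θ s, HasDerivAt (fun θ => c θ s) (c' θ s) θ)
    (hA : ∀ θ s i, |a θ s i| ≤ A) (hA' : ∀ θ s i, |a' θ s i| ≤ A')
    (hC : ∀ θ s, |c θ s| ≤ C) (hC' : ∀ θ s, |c' θ s| ≤ C') {K K' : ℝ → ℝ}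
    (hK : ∀ θ, HasDerivAt K (K' θ) θ) {θ₀ θ₁ : ℝ} (h01 : θ₀ ≤ θ₁)
    (hbr : ∀ θ, θ₀ ≤ θ → θ ≤ θ₁ → ∀ g, br κ (a θ) (c θ) (a' θ) (c' θ) g ≤ K' θ) :
    ∫ g, zp κ (a θ₁) (c θ₁) g ∂(gpi ι) ≤
      Real.exp (κ * (K θ₁ - K θ₀)) * ∫ g, zp κ (a θ₀) (c θ₀) g ∂(gpi ι) := by
  set Ψ : ℝ → ℝ := fun θ => ∫ g, zp κ (a θ) (c θ) g ∂(gpi ι) with hΨ
  have hd : ∀ θ, HasDerivAt (fun θ => Real.exp (-(κ * K θ)) * Ψ θ)
      (Real.exp (-(κ * K θ)) * -(κ * K' θ) * Ψ θ + Real.exp (-(κ * K θ)) *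
        (κ * ∫ g, zp κ (a θ) (c θ) g * br κ (a θ) (c θ) (a' θ) (c' θ) g ∂(gpi ι))) θ :=
    fun θ => (((hK θ).const_mul κ).neg.exp).mul (hasDerivAt_moment κ ha hc hA hA' hC hC' θ)
  have hanti : AntitoneOn (fun θ => Real.exp (-(κ * K θ)) * Ψ θ) (Set.Icc θ₀ θ₁) := by
    refine antitoneOn_of_hasDerivWithinAt_nonpos (convex_Icc θ₀ θ₁)
      (fun θ _ => (hd θ).continuousAt.continuousWithinAt)
      (f' := fun θ => Real.exp (-(κ * K θ)) * -(κ * K' θ) * Ψ θ + Real.exp (-(κ * K θ)) *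
        (κ * ∫ g, zp κ (a θ) (c θ) g * br κ (a θ) (c θ) (a' θ) (c' θ) g ∂(gpi ι)))
      (fun θ _ => (hd θ).hasDerivWithinAt) ?_
    intro θ hθ
    rw [interior_Icc] at hθ
    have h1 : ∫ g, zp κ (a θ) (c θ) g * br κ (a θ) (c θ) (a' θ) (c' θ) g ∂(gpi ι) ≤
        ∫ g, K' θ * zp κ (a θ) (c θ) g ∂(gpi ι) := by
      refine int_mono ((zp_dom _ _ _).mul (br_dom _ _ _ _ _)) ((zp_dom _ _ _).const_mul _)
        fun g => ?_
      rw [mul_comm]
      exact mul_le_mul_of_nonneg_right (hbr θ hθ.1.le hθ.2.le g) (zp_pos _ _ _ _).le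
    rw [integral_const_mul] at h1
    have h2 := mul_le_mul_of_nonneg_left h1 (mul_nonneg (Real.exp_pos (-(κ * K θ))).le hκ)
    have h3 : Ψ θ = ∫ g, zp κ (a θ) (c θ) g ∂(gpi ι) := rfl
    rw [← h3] at h2
    nlinarith [h2]
  have h := hanti (Set.left_mem_Icc.2 h01) (Set.right_mem_Icc.2 h01) h01
  simp only at h
  have h4 := mul_le_mul_of_nonneg_left h (Real.exp_pos (κ * K θ₁)).le
  rw [← mul_assoc, ← mul_assoc, ← Real.exp_add, ← Real.exp_add] at h4
  have e1 : κ * K θ₁ + -(κ * K θ₁) = 0 := by ring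
  have e2 : κ * K θ₁ + -(κ * K θ₀) = κ * (K θ₁ - K θ₀) := by ring
  rw [e1, e2, Real.exp_zero, one_mul] at h4
  exact h4

end gen

/-! ### positive association of a tilted product -/

section assoc

variable {X Y : Type*} [Fintype X] [Fintype Y]

lemma exp_sub_mul_nonneg {l A B : ℝ} (hl : 0 ≤ l) :
    0 ≤ (Real.exp (l * A) - Real.exp (l * B)) * (A - B) := by
  rcases le_total A B with h | h
  · have := Real.exp_le_exp.2 (mul_le_mul_of_nonneg_left h hl)
    exact mul_nonneg_of_nonpos_of_nonpos (by linarith) (by linarith)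
  · have := Real.exp_le_exp.2 (mul_le_mul_of_nonneg_left h hl)
    exact mul_nonneg (by linarith) (by linarith)

/-- exchanging the second coordinates of two replicas -/
lemma swap_nonneg (μ : X → ℝ) (ν : Y → ℝ) (f : X → Y → ℝ) {l : ℝ} (hl : 0 ≤ l)
    (hμ : ∀ x, 0 ≤ μ x) (hν : ∀ y, 0 ≤ ν y) :
    0 ≤ ∑ x, ∑ x', ∑ y, ∑ y', μ x * μ x' * (ν y * ν y') *
      Real.exp (l * (f x y + f x' y')) * (f x y + f x' y' - (f x y' + f x' y)) := by
  set D := ∑ x, ∑ x', ∑ y, ∑ y', μ x * μ x' * (ν y * ν y') *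
      Real.exp (l * (f x y + f x' y')) * (f x y + f x' y' - (f x y' + f x' y)) with hD
  have h1 : D = ∑ x, ∑ x', ∑ y, ∑ y', μ x * μ x' * (ν y * ν y') *
      Real.exp (l * (f x y' + f x' y)) * (f x y' + f x' y - (f x y + f x' y')) := by
    rw [hD]
    refine Finset.sum_congr rfl fun x _ => Finset.sum_congr rfl fun x' _ => ?_
    rw [Finset.sum_comm]
    refine Finset.sum_congr rfl fun y _ => Finset.sum_congr rfl fun y' _ => ?_
    ring
  have h2 : 2 * D = ∑ x, ∑ x', ∑ y, ∑ y', μ x * μ x' * (ν y * ν y') *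
      ((Real.exp (l * (f x y + f x' y')) - Real.exp (l * (f x y' + f x' y))) *
        (f x y + f x' y' - (f x y' + f x' y))) := by
    rw [two_mul]
    nth_rewrite 2 [h1]
    rw [hD]
    simp only [← Finset.sum_add_distrib]
    refine Finset.sum_congr rfl fun x _ => Finset.sum_congr rfl fun x' _ =>
      Finset.sum_congr rfl fun y _ => Finset.sum_congr rfl fun y' _ => ?_
    ring
  have h3 : 0 ≤ 2 * D := by
    rw [h2]
    refine Finset.sum_nonneg fun x _ => Finset.sum_nonneg fun x' _ =>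
      Finset.sum_nonneg fun y _ => Finset.sum_nonneg fun y' _ => ?_
    exact mul_nonneg (mul_nonneg (mul_nonneg (hμ x) (hμ x')) (mul_nonneg (hν y) (hν y')))
      (exp_sub_mul_nonneg hl)
  linarith

/-- positive association: weights `μ x * ν y * exp (l * ∑ u v)` -/
lemma assoc {P : Type*} [Fintype P] (μ : X → ℝ) (ν : Y → ℝ) (u : X → P → ℝ) (v : Y → P → ℝ)
    (w : X × Y → ℝ) {l : ℝ} (hl : 0 ≤ l) (hμ : ∀ x, 0 ≤ μ x) (hν : ∀ y, 0 ≤ ν y)
    (hw : ∀ x y, w (x, y) = μ x * ν y * Real.exp (l * ∑ p, u x p * v y p)) :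
    ∑ p, (∑ s, u s.1 p * w s) * (∑ s, v s.2 p * w s) ≤
      (∑ s, (∑ p, u s.1 p * v s.2 p) * w s) * ∑ s, w s := by
  set f : X → Y → ℝ := fun x y => ∑ p, u x p * v y p with hf
  have h := swap_nonneg μ ν f hl hμ hν
  have e : ∑ x, ∑ x', ∑ y, ∑ y', μ x * μ x' * (ν y * ν y') *
      Real.exp (l * (f x y + f x' y')) * (f x y + f x' y' - (f x y' + f x' y)) =
      2 * ((∑ s, (∑ p, u s.1 p * v s.2 p) * w s) * (∑ s, w s) -
        ∑ p, (∑ s, u s.1 p * w s) * (∑ s, v s.2 p * w s)) := by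
    have e1 : ∀ x x' y y', μ x * μ x' * (ν y * ν y') *
        Real.exp (l * (f x y + f x' y')) = w (x, y) * w (x', y') := by
      intro x x' y y'
      rw [hw, hw, mul_add, Real.exp_add]
      ring
    simp_rw [e1]
    have e2 : ∀ F : X → Y → X → Y → ℝ, ∑ x, ∑ x', ∑ y, ∑ y', F x y x' y' =
        ∑ s : X × Y, ∑ s' : X × Y, F s.1 s.2 s'.1 s'.2 := by
      intro F
      rw [Fintype.sum_prod_type]
      refine Finset.sum_congr rfl fun x _ => ?_
      rw [Finset.sum_comm]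
      refine Finset.sum_congr rfl fun y _ => ?_
      rw [Fintype.sum_prod_type]
    rw [e2 fun x y x' y' => w (x, y) * w (x', y') * (f x y + f x' y' - (f x y' + f x' y))]
    have e3 : ∑ s : X × Y, ∑ s' : X × Y, w (s.1, s.2) * w (s'.1, s'.2) *
        (f s.1 s.2 + f s'.1 s'.2 - (f s.1 s'.2 + f s'.1 s.2)) =
        ∑ s : X × Y, ∑ s' : X × Y, (f s.1 s.2 * w s) * w s' +
        ∑ s : X × Y, ∑ s' : X × Y, w s * (f s'.1 s'.2 * w s') -
        (∑ s : X × Y, ∑ s' : X × Y, f s.1 s'.2 * (w s * w s') +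
        ∑ s : X × Y, ∑ s' : X × Y, f s'.1 s.2 * (w s * w s')) := by
      simp only [← Finset.sum_add_distrib, ← Finset.sum_sub_distrib]
      refine Finset.sum_congr rfl fun s _ => Finset.sum_congr rfl fun s' _ => ?_
      ring
    have e4 : ∑ s : X × Y, ∑ s' : X × Y, f s.1 s'.2 * (w s * w s') =
        ∑ p, (∑ s, u s.1 p * w s) * (∑ s, v s.2 p * w s) := by
      simp only [hf]
      have : ∀ s s' : X × Y, (∑ p, u s.1 p * v s'.2 p) * (w s * w s') =
          ∑ p, (u s.1 p * w s) * (v s'.2 p * w s') := by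
        intro s s'
        rw [Finset.sum_mul]
        exact Finset.sum_congr rfl fun p _ => by ring
      simp_rw [this]
      simp_rw [Finset.sum_mul_sum]
      rw [Finset.sum_congr rfl fun s _ => Finset.sum_comm, Finset.sum_comm]
    have e5 : ∑ s : X × Y, ∑ s' : X × Y, f s'.1 s.2 * (w s * w s') =
        ∑ p, (∑ s, u s.1 p * w s) * (∑ s, v s.2 p * w s) := by
      rw [← e4, Finset.sum_comm]
      refine Finset.sum_congr rfl fun s _ => Finset.sum_congr rfl fun s' _ => ?_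
      ring
    rw [e3, e4, e5]
    simp_rw [← Finset.mul_sum, ← Finset.sum_mul]
    simp only [hf]
    ring
  rw [e] at h
  linarith

end assoc

end Vale.Agent.P146.H501
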