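import Vale.Agent.P146.H501.Asym
import Vale.Agent.Results.P146.SharpRate

/-!
# P146: large overlaps of two correlated copies are exponentially unlikely at every `β > 1`
-/

open MeasureTheory ProbabilityTheory

namespace Vale.Agent.P146.H501

open Vale.Agent.P146 Vale.Agent.P146.Ub.Cv Vale.Agent.P146.H605

/-- **Large overlaps.**  For every `β > 1`, for `n` large and uniformly over the correlation `t`
and over `δ` with `(1 - t) δ ≥ n^{-1/20}`, the annealed Gibbs probability of `R² ≥ δ` is at most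
`exp (-n^{4/5})`. -/
theorem overlap_tail {β : ℝ} (hβ : 1 < β) : ∃ N : ℕ, ∀ n : ℕ, N ≤ n → ∀ t δ : ℝ, 0 ≤ t →
    t ≤ 1 → (n : ℝ) ^ (-(1 / 20) : ℝ) ≤ (1 - t) * δ →
      gm n β (big n δ) t ≤ Real.exp (-(n : ℝ) ^ (4 / 5 : ℝ)) := by
  obtain ⟨c₀, Λ, hc₀, hΛ, h⟩ := Vale.Agent.Results.P146.SharpRate.result
  obtain ⟨hΛ0, p, C, a, b, ha, hb, hlim, hld, hall, hev⟩ := h β hβ
  exact tail_of (p := p) (C := C) hβ hb fun n hn =>
    ⟨(hall n hn).1, (hall n hn).2.2.2.1, (hall n hn).2.2.2.2.2.1⟩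

/-- the moments of the overlap of two copies with correlation `t` -/
noncomputable def crossMom (n : ℕ) (β : ℝ) (K : ℕ) (t : ℝ) : ℝ :=
  ∫ z, ∫ g, ∫ g', ∑ σ : Fin n → ℤˣ, ∑ τ : Fin n → ℤˣ,
    |overlap n σ τ| ^ K * gibbs n β (mixed n t z g) σ * gibbs n β (mixed n t z g') τ
      ∂(disorder n) ∂(disorder n) ∂(disorder n)

lemma crossMom_eq (n : ℕ) (β : ℝ) (K : ℕ) (t : ℝ) :
    crossMom n β K t = gm n β (fun σ τ => |overlap n σ τ| ^ K) t := rfl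

lemma crossMom_two (n : ℕ) (β t : ℝ) : crossMom n β 2 t = crossOverlap n β t := by
  unfold crossMom crossOverlap
  simp_rw [sq_abs]

lemma abs_overlap_le (n : ℕ) (σ τ : Fin n → ℤˣ) : |overlap n σ τ| ≤ 1 := by
  unfold overlap
  rw [abs_div, Nat.abs_cast]
  refine div_le_one_of_le₀ ?_ (Nat.cast_nonneg n)
  refine (Finset.abs_sum_le_sum_abs _ _).trans ?_
  have : ∀ i : Fin n, |((σ i : ℤ) : ℝ) * ((τ i : ℤ) : ℝ)| = 1 := fun i => by
    have h1 : |((σ i : ℤ) : ℝ)| = 1 := abs_sp σ i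
    have h2 : |((τ i : ℤ) : ℝ)| = 1 := abs_sp τ i
    rw [abs_mul, h1, h2, one_mul]
  simp [this]

/-- a function dominated off the large overlaps -/
lemma gm_le_of {n : ℕ} {β : ℝ} {f h : (Fin n → ℤˣ) → (Fin n → ℤˣ) → ℝ} {δ c ε t : ℝ}
    (hε : gm n β (big n δ) t ≤ ε)
    (hf : ∀ σ τ, overlap n σ τ ^ 2 ≤ δ → f σ τ ≤ c * h σ τ) (hc : 0 ≤ c)
    (hh : ∀ σ τ, 0 ≤ h σ τ) (hf1 : ∀ σ τ, f σ τ ≤ 1) :
    gm n β f t ≤ c * gm n β h t + ε := by
  have h1 : gm n β f t ≤ gm n β (fun σ τ => c * h σ τ + big n δ σ τ) t := by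
    refine gm_mono n β (fun σ τ => ?_) t
    rcases le_or_gt δ (overlap n σ τ ^ 2) with h2 | h2
    · have h3 : big n δ σ τ = 1 := by
        unfold big
        rw [if_pos h2]
      have := mul_nonneg hc (hh σ τ)
      linarith [hf1 σ τ]
    · have h3 := hf σ τ h2.le
      have := big_nonneg n δ σ τ
      linarith
  rw [gm_add, gm_const_mul] at h1
  linarith

/-- **Higher moments are negligible.** -/
theorem crossMom_tail {β : ℝ} (hβ : 1 < β) : ∃ N : ℕ, ∀ n : ℕ, N ≤ n → ∀ t δ : ℝ, 0 ≤ t →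
    t ≤ 1 → (n : ℝ) ^ (-(1 / 20) : ℝ) ≤ (1 - t) * δ →
      (∀ K J : ℕ, crossMom n β (K + J) t ≤
        Real.sqrt δ ^ K * crossMom n β J t + Real.exp (-(n : ℝ) ^ (4 / 5 : ℝ))) := by
  obtain ⟨N, hN⟩ := overlap_tail hβ
  refine ⟨N, fun n hn t δ ht0 ht1 hδ K J => ?_⟩
  have h1 := hN n hn t δ ht0 ht1 hδ
  rw [crossMom_eq, crossMom_eq]
  refine gm_le_of (h := fun σ τ => |overlap n σ τ| ^ J) (c := Real.sqrt δ ^ K) h1
    (fun σ τ h2 => ?_) (pow_nonneg (Real.sqrt_nonneg _) _)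
    (fun σ τ => pow_nonneg (abs_nonneg _) _) (fun σ τ => ?_)
  · rw [pow_add]
    have h3 : |overlap n σ τ| ≤ Real.sqrt δ := Real.abs_le_sqrt h2
    exact mul_le_mul_of_nonneg_right (pow_le_pow_left₀ (abs_nonneg _) h3 K)
      (pow_nonneg (abs_nonneg _) _)
  · exact pow_le_one₀ (abs_nonneg _) (abs_overlap_le n σ τ)

lemma crossMom_zero (n : ℕ) (β t : ℝ) : crossMom n β 0 t = 1 := by
  rw [crossMom_eq]
  simp only [pow_zero]
  exact gm_const n β 1 t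

/-- the three cases used below -/
theorem crossMom_bounds {β : ℝ} (hβ : 1 < β) : ∃ N : ℕ, ∀ n : ℕ, N ≤ n → ∀ t δ : ℝ, 0 ≤ t →
    t ≤ 1 → 0 ≤ δ → (n : ℝ) ^ (-(1 / 20) : ℝ) ≤ (1 - t) * δ →
      crossMom n β 4 t ≤ δ * crossOverlap n β t + Real.exp (-(n : ℝ) ^ (4 / 5 : ℝ)) ∧
      crossOverlap n β t ≤ δ + Real.exp (-(n : ℝ) ^ (4 / 5 : ℝ)) ∧
      crossMom n β 1 t ≤ Real.sqrt δ + Real.exp (-(n : ℝ) ^ (4 / 5 : ℝ)) := by
  obtain ⟨N, hN⟩ := crossMom_tail hβ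
  refine ⟨N, fun n hn t δ ht0 ht1 hδ0 hδ => ?_⟩
  have h := hN n hn t δ ht0 ht1 hδ
  have h1 := h 2 2
  have h2 := h 2 0
  have h3 := h 1 0
  rw [Real.sq_sqrt hδ0] at h1 h2
  rw [crossMom_zero, mul_one] at h2 h3
  rw [pow_one] at h3
  rw [crossMom_two] at h1
  have h4 : crossMom n β (2 + 0) t = crossOverlap n β t := crossMom_two n β t
  rw [h4] at h2
  exact ⟨h1, h2, h3⟩

end Vale.Agent.P146.H501
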