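import Vale.Agent.P146.H501.Interp

/-!
# P146: the replica inequality for two copies of the disorder with a small exponent
-/

open MeasureTheory ProbabilityTheory

namespace Vale.Agent.P146.H501

open Vale.Agent.P146

section rep

variable {P S : Type*} [Fintype P] [Fintype S] [Nonempty S]

/-- coefficients of the two copies: `cos φ z + sin φ g` and `cos φ z + sin φ g'` -/
noncomputable def ra (h : S → P → ℝ) (φ : ℝ) (s : S × S) : P ⊕ (P ⊕ P) → ℝ :=
  Sum.elim (fun p => Real.cos φ * (h s.1 p + h s.2 p))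
    (Sum.elim (fun p => Real.sin φ * h s.1 p) (fun p => Real.sin φ * h s.2 p))

/-- derivative of `ra` -/
noncomputable def ra' (h : S → P → ℝ) (φ : ℝ) (s : S × S) : P ⊕ (P ⊕ P) → ℝ :=
  Sum.elim (fun p => -Real.sin φ * (h s.1 p + h s.2 p))
    (Sum.elim (fun p => Real.cos φ * h s.1 p) (fun p => Real.cos φ * h s.2 p))

/-- the overlap term -/
noncomputable def rq (h : S → P → ℝ) (r : ℝ) (s : S × S) : ℝ := 2 * ∑ p, h s.1 p * h s.2 p + r

/-- the overlap term with its coefficient -/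
noncomputable def rc (h : S → P → ℝ) (κ r φ : ℝ) (s : S × S) : ℝ :=
  κ / 2 * Real.sin φ ^ 2 * rq h r s

/-- derivative of `rc` -/
noncomputable def rc' (h : S → P → ℝ) (κ r φ : ℝ) (s : S × S) : ℝ :=
  κ * (Real.sin φ * Real.cos φ) * rq h r s

omit [Fintype P] [Fintype S] [Nonempty S] in
lemma hasDerivAt_ra (h : S → P → ℝ) (φ : ℝ) (s : S × S) (i : P ⊕ (P ⊕ P)) :
    HasDerivAt (fun φ => ra h φ s i) (ra' h φ s i) φ := by
  rcases i with p | p | p
  · exact (Real.hasDerivAt_cos φ).mul_const _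
  · exact (Real.hasDerivAt_sin φ).mul_const _
  · exact (Real.hasDerivAt_sin φ).mul_const _

omit [Fintype S] [Nonempty S] in
lemma hasDerivAt_rc (h : S → P → ℝ) (κ r φ : ℝ) (s : S × S) :
    HasDerivAt (fun φ => rc h κ r φ s) (rc' h κ r φ s) φ := by
  unfold rc rc'
  have h1 := (((Real.hasDerivAt_sin φ).pow 2).const_mul (κ / 2)).mul_const (rq h r s)
  refine h1.congr_deriv ?_
  simp only [Nat.cast_ofNat, pow_one, Nat.add_one_sub_one]
  ring

omit [Nonempty S] in
lemma ra_bd (h : S → P → ℝ) (φ : ℝ) (s : S × S) (i : P ⊕ (P ⊕ P)) :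
    |ra h φ s i| ≤ 2 * ∑ s, ∑ p, |h s p| ∧ |ra' h φ s i| ≤ 2 * ∑ s, ∑ p, |h s p| := by
  have hb : ∀ s p, |h s p| ≤ ∑ s, ∑ p, |h s p| := fun s p =>
    (Finset.single_le_sum (f := fun p => |h s p|) (fun i _ => abs_nonneg _)
      (Finset.mem_univ p)).trans (Finset.single_le_sum (f := fun s => ∑ p, |h s p|)
      (fun i _ => Finset.sum_nonneg fun _ _ => abs_nonneg _) (Finset.mem_univ s))
  have hc : |Real.cos φ| ≤ 1 := Real.abs_cos_le_one φ
  have hs : |Real.sin φ| ≤ 1 := Real.abs_sin_le_one φ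
  have hs' : |-Real.sin φ| ≤ 1 := by rw [abs_neg]; exact hs
  have k1 : ∀ {x y : ℝ} {p : P}, |x| ≤ 1 → |x * (h s.1 p + h s.2 p)| ≤
      2 * ∑ s, ∑ p, |h s p| := by
    intro x y p hx
    rw [abs_mul]
    calc |x| * |h s.1 p + h s.2 p| ≤ 1 * |h s.1 p + h s.2 p| :=
          mul_le_mul_of_nonneg_right hx (abs_nonneg _)
      _ ≤ _ := by
        rw [one_mul]
        have := abs_add_le (h s.1 p) (h s.2 p)
        linarith [hb s.1 p, hb s.2 p]
  have k2 : ∀ {x : ℝ} {p : P} {τ : S}, |x| ≤ 1 → |x * h τ p| ≤ 2 * ∑ s, ∑ p, |h s p| := by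
    intro x p τ hx
    rw [abs_mul]
    calc |x| * |h τ p| ≤ 1 * |h τ p| := mul_le_mul_of_nonneg_right hx (abs_nonneg _)
      _ ≤ _ := by
        rw [one_mul]
        have := (abs_nonneg _).trans (hb τ p)
        linarith [hb τ p]
  rcases i with p | p | p
  · exact ⟨k1 (y := 0) hc, k1 (y := 0) hs'⟩
  · exact ⟨k2 hs, k2 hc⟩
  · exact ⟨k2 hs, k2 hc⟩

omit [Nonempty S] in
lemma rc_bd (h : S → P → ℝ) (κ r φ : ℝ) (s : S × S) :
    |rc h κ r φ s| ≤ |κ| * ∑ s, |rq h r s| ∧ |rc' h κ r φ s| ≤ |κ| * ∑ s, |rq h r s| := by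
  have hb : |rq h r s| ≤ ∑ s, |rq h r s| :=
    Finset.single_le_sum (f := fun s => |rq h r s|) (fun i _ => abs_nonneg _)
      (Finset.mem_univ s)
  have hc : |Real.cos φ| ≤ 1 := Real.abs_cos_le_one φ
  have hs : |Real.sin φ| ≤ 1 := Real.abs_sin_le_one φ
  have h1 : |κ / 2 * Real.sin φ ^ 2| ≤ |κ| := by
    rw [abs_mul, abs_div, abs_pow]
    have : |Real.sin φ| ^ 2 ≤ 1 := pow_le_one₀ (abs_nonneg _) hs
    have h2 : |(2 : ℝ)| = 2 := abs_of_pos two_pos
    rw [h2]
    have h3 := mul_le_mul_of_nonneg_left this (abs_nonneg κ)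
    have h4 := mul_nonneg (abs_nonneg κ) (sq_nonneg |Real.sin φ|)
    nlinarith [abs_nonneg κ]
  have h2 : |κ * (Real.sin φ * Real.cos φ)| ≤ |κ| := by
    rw [abs_mul, abs_mul]
    have : |Real.sin φ| * |Real.cos φ| ≤ 1 := mul_le_one₀ hs (abs_nonneg _) hc
    have h3 := mul_le_mul_of_nonneg_left this (abs_nonneg κ)
    linarith
  unfold rc rc'
  rw [abs_mul, abs_mul (κ * _)]
  exact ⟨mul_le_mul h1 hb (abs_nonneg _) (abs_nonneg _),
    mul_le_mul h2 hb (abs_nonneg _) (abs_nonneg _)⟩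

/-- positive correlation of the two replicas -/
lemma gav_assoc (h : S → P → ℝ) {κ : ℝ} (hκ : 0 ≤ κ) (r φ : ℝ) (g : P ⊕ (P ⊕ P) → ℝ) :
    ∑ p, gav (ra h φ) (rc h κ r φ) (fun s => h s.1 p) g *
        gav (ra h φ) (rc h κ r φ) (fun s => h s.2 p) g ≤
      gav (ra h φ) (rc h κ r φ) (fun s => ∑ p, h s.1 p * h s.2 p) g := by
  have hz := zz_pos (ra h φ) (rc h κ r φ) g
  have hl : 0 ≤ κ * Real.sin φ ^ 2 := mul_nonneg hκ (sq_nonneg _)
  have key := assoc (P := P)
    (fun σ : S => Real.exp (∑ p, Real.cos φ * h σ p * g (Sum.inl p) +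
      ∑ p, Real.sin φ * h σ p * g (Sum.inr (Sum.inl p)) + κ / 2 * Real.sin φ ^ 2 * r))
    (fun τ : S => Real.exp (∑ p, Real.cos φ * h τ p * g (Sum.inl p) +
      ∑ p, Real.sin φ * h τ p * g (Sum.inr (Sum.inr p))))
    (fun σ p => h σ p) (fun τ p => h τ p) (fun s => wt (ra h φ) (rc h κ r φ) g s) hl
    (fun _ => (Real.exp_pos _).le) (fun _ => (Real.exp_pos _).le) (fun σ τ => by
      unfold wt
      rw [← Real.exp_add, ← Real.exp_add]
      congr 1
      rw [Fintype.sum_sum_type, Fintype.sum_sum_type]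
      simp only [ra, Sum.elim_inl, Sum.elim_inr]
      unfold rc rq
      simp only
      have e1 : ∑ p, Real.cos φ * (h σ p + h τ p) * g (Sum.inl p) =
          ∑ p, Real.cos φ * h σ p * g (Sum.inl p) +
          ∑ p, Real.cos φ * h τ p * g (Sum.inl p) := by
        rw [← Finset.sum_add_distrib]
        exact Finset.sum_congr rfl fun p _ => by ring
      rw [e1]
      ring)
  unfold gav
  have e : ∑ p, (∑ s, h s.1 p * wt (ra h φ) (rc h κ r φ) g s) / zz (ra h φ) (rc h κ r φ) g *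
      ((∑ s, h s.2 p * wt (ra h φ) (rc h κ r φ) g s) / zz (ra h φ) (rc h κ r φ) g) =
      (∑ p, (∑ s, h s.1 p * wt (ra h φ) (rc h κ r φ) g s) *
        (∑ s, h s.2 p * wt (ra h φ) (rc h κ r φ) g s)) / zz (ra h φ) (rc h κ r φ) g ^ 2 := by
    rw [Finset.sum_div]
    exact Finset.sum_congr rfl fun p _ => by rw [div_mul_div_comm, sq]
  rw [e, div_le_div_iff₀ (pow_pos hz 2) hz]
  have k2 := mul_le_mul_of_nonneg_right key hz.le
  have e2 : ∑ s, wt (ra h φ) (rc h κ r φ) g s = zz (ra h φ) (rc h κ r φ) g := rfl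
  rw [e2] at k2
  calc _ ≤ _ := k2
    _ = _ := by ring

/-- the bracket of the derivative -/
lemma rep_br (h : S → P → ℝ) (κ r φ : ℝ) (g : P ⊕ (P ⊕ P) → ℝ) :
    br κ (ra h φ) (rc h κ r φ) (ra' h φ) (rc' h κ r φ) g =
      κ * r * (Real.sin φ * Real.cos φ) - 2 * (1 - κ) * (Real.sin φ * Real.cos φ) *
        (gav (ra h φ) (rc h κ r φ) (fun s => ∑ p, h s.1 p * h s.2 p) g -
          ∑ p, gav (ra h φ) (rc h κ r φ) (fun s => h s.1 p) g *
            gav (ra h φ) (rc h κ r φ) (fun s => h s.2 p) g) := by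
  unfold br
  have e1 : (fun s => ∑ i, ra' h φ s i * ra h φ s i + rc' h κ r φ s) = fun s =>
      (-2 * (1 - κ) * (Real.sin φ * Real.cos φ)) * (∑ p, h s.1 p * h s.2 p) +
        κ * r * (Real.sin φ * Real.cos φ) := by
    funext s
    rw [Fintype.sum_sum_type, Fintype.sum_sum_type]
    simp only [ra, ra', Sum.elim_inl, Sum.elim_inr]
    unfold rc' rq
    have f1 : ∑ p, -Real.sin φ * (h s.1 p + h s.2 p) * (Real.cos φ * (h s.1 p + h s.2 p)) +
        (∑ p, Real.cos φ * h s.1 p * (Real.sin φ * h s.1 p) +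
          ∑ p, Real.cos φ * h s.2 p * (Real.sin φ * h s.2 p)) =
        (-2 * (Real.sin φ * Real.cos φ)) * ∑ p, h s.1 p * h s.2 p := by
      rw [Finset.mul_sum, ← Finset.sum_add_distrib, ← Finset.sum_add_distrib]
      exact Finset.sum_congr rfl fun p _ => by ring
    rw [f1]
    ring
  rw [e1, gav_add, gav_const_mul, gav_const]
  have e2 : ∑ i, gav (ra h φ) (rc h κ r φ) (fun s => ra' h φ s i) g *
      gav (ra h φ) (rc h κ r φ) (fun s => ra h φ s i) g =
      (-2 * (Real.sin φ * Real.cos φ)) *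
        ∑ p, gav (ra h φ) (rc h κ r φ) (fun s => h s.1 p) g *
            gav (ra h φ) (rc h κ r φ) (fun s => h s.2 p) g := by
    rw [Fintype.sum_sum_type, Fintype.sum_sum_type]
    simp only [ra', Sum.elim_inl, Sum.elim_inr]
    have g1 : ∀ p, gav (ra h φ) (rc h κ r φ) (fun s => ra h φ s (Sum.inl p)) g =
        Real.cos φ * (gav (ra h φ) (rc h κ r φ) (fun s => h s.1 p) g +
          gav (ra h φ) (rc h κ r φ) (fun s => h s.2 p) g) := by
      intro p
      rw [← gav_add, ← gav_const_mul]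
      rfl
    have g2 : ∀ p, gav (ra h φ) (rc h κ r φ) (fun s => ra h φ s (Sum.inr (Sum.inl p))) g =
        Real.sin φ * gav (ra h φ) (rc h κ r φ) (fun s => h s.1 p) g := by
      intro p
      rw [← gav_const_mul]
      rfl
    have g3 : ∀ p, gav (ra h φ) (rc h κ r φ) (fun s => ra h φ s (Sum.inr (Sum.inr p))) g =
        Real.sin φ * gav (ra h φ) (rc h κ r φ) (fun s => h s.2 p) g := by
      intro p
      rw [← gav_const_mul]
      rfl
    simp_rw [g1, g2, g3, gav_const_mul, gav_add]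
    rw [Finset.mul_sum, ← Finset.sum_add_distrib, ← Finset.sum_add_distrib]
    exact Finset.sum_congr rfl fun p _ => by ring
  rw [e2]
  ring

/-- **The replica inequality.** -/
theorem rep_le (h : S → P → ℝ) {κ : ℝ} (hκ0 : 0 ≤ κ) (hκ1 : κ ≤ 1) (r : ℝ) {φ : ℝ}
    (h0 : 0 ≤ φ) (h1 : φ ≤ Real.pi / 2) [DecidableEq P] :
    ∫ g, zp κ (ra h φ) (rc h κ r φ) g ∂(gpi (P ⊕ (P ⊕ P))) ≤
      Real.exp (κ * (κ * r * (Real.sin φ ^ 2 / 2))) *
        ∫ g, Real.exp (2 * κ * Real.log (zz h (fun _ => 0) (fun p => g (Sum.inl p))))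
          ∂(gpi (P ⊕ (P ⊕ P))) := by
  have key := moment_le (ι := P ⊕ (P ⊕ P)) (S := S × S) κ hκ0 (a := ra h) (a' := ra' h)
    (c := rc h κ r) (c' := rc' h κ r) (A := 2 * ∑ s, ∑ p, |h s p|)
    (A' := 2 * ∑ s, ∑ p, |h s p|) (C := |κ| * ∑ s, |rq h r s|) (C' := |κ| * ∑ s, |rq h r s|)
    (fun φ s i => hasDerivAt_ra h φ s i) (fun φ s => hasDerivAt_rc h κ r φ s)
    (fun φ s i => (ra_bd h φ s i).1) (fun φ s i => (ra_bd h φ s i).2)
    (fun φ s => (rc_bd h κ r φ s).1) (fun φ s => (rc_bd h κ r φ s).2)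
    (K := fun φ => κ * r * (Real.sin φ ^ 2 / 2))
    (K' := fun φ => κ * r * (Real.sin φ * Real.cos φ)) (fun θ => by
      have h1 := (((Real.hasDerivAt_sin θ).pow 2).div_const 2).const_mul (κ * r)
      refine h1.congr_deriv ?_
      simp only [Nat.cast_ofNat, pow_one, Nat.add_one_sub_one]
      ring) h0 (fun θ hθ0 hθ1 g => by
      have hs : 0 ≤ Real.sin θ := Real.sin_nonneg_of_nonneg_of_le_pi hθ0 (by
        have := Real.pi_pos; linarith)
      have hc : 0 ≤ Real.cos θ := Real.cos_nonneg_of_neg_pi_div_two_le_of_le (by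
        have := Real.pi_pos; linarith) (by linarith)
      rw [rep_br]
      have h2 := gav_assoc h hκ0 r θ g
      have h3 : 0 ≤ 2 * (1 - κ) * (Real.sin θ * Real.cos θ) *
        (gav (ra h θ) (rc h κ r θ) (fun s => ∑ p, h s.1 p * h s.2 p) g -
          ∑ p, gav (ra h θ) (rc h κ r θ) (fun s => h s.1 p) g *
            gav (ra h θ) (rc h κ r θ) (fun s => h s.2 p) g) :=
        mul_nonneg (mul_nonneg (by linarith) (mul_nonneg hs hc)) (by linarith)
      linarith)
  have e0 : κ * r * (Real.sin 0 ^ 2 / 2) = 0 := by simp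
  rw [e0, sub_zero] at key
  refine key.trans (le_of_eq ?_)
  congr 1
  refine integral_congr_ae (Filter.Eventually.of_forall fun g => ?_)
  simp only
  unfold zp
  have hz := zz_pos h (fun _ => 0) (fun p => g (Sum.inl p))
  have e1 : zz (ra h 0) (rc h κ r 0) g = zz h (fun _ => 0) (fun p => g (Sum.inl p)) ^ 2 := by
    unfold zz
    rw [sq, Fintype.sum_prod_type, Finset.sum_mul_sum]
    refine Finset.sum_congr rfl fun σ _ => Finset.sum_congr rfl fun τ _ => ?_
    unfold wt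
    rw [← Real.exp_add]
    congr 1
    rw [Fintype.sum_sum_type, Fintype.sum_sum_type]
    simp only [ra, Sum.elim_inl, Sum.elim_inr, rc, Real.sin_zero, Real.cos_zero]
    simp only [one_mul, zero_mul, Finset.sum_const_zero, add_zero, ne_eq, OfNat.ofNat_ne_zero,
      not_false_eq_true, zero_pow, mul_zero]
    rw [← Finset.sum_add_distrib]
    exact Finset.sum_congr rfl fun p _ => by ring
  rw [e1, Real.log_pow]
  congr 1
  push_cast
  ring

end rep

end Vale.Agent.P146.H501
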