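import Vale.Agent.P146.H501.Rep
import Vale.Agent.P146.H605.Chaos

/-!
# P146: large overlaps of two correlated copies are exponentially unlikely
-/

open MeasureTheory ProbabilityTheory

namespace Vale.Agent.P146.H501

open Vale.Agent.P146 Vale.Agent.P146.Ub.Cv Vale.Agent.P146.H605

section gen

variable {ι : Type*} [Fintype ι]

lemma mp_uw : MeasurePreserving (fun g : J3 ι → ℝ => (pu g, pw g)) (gpi (J3 ι))
    ((gpi ι).prod (gpi ι)) := by
  have h1 : MeasurePreserving (Prod.map id Prod.snd :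
      (ι → ℝ) × ((ι → ℝ) × (ι → ℝ)) → (ι → ℝ) × (ι → ℝ))
      ((gpi ι).prod ((gpi ι).prod (gpi ι))) ((gpi ι).prod (gpi ι)) :=
    (MeasurePreserving.id (gpi ι)).prod measurePreserving_snd
  exact h1.comp mp3

/-- the iterated integral of a bounded continuous function -/
lemma int_iter {f : (ι → ℝ) → (ι → ℝ) → (ι → ℝ) → ℝ} {B : ℝ}
    (hf : Continuous fun q : (ι → ℝ) × ((ι → ℝ) × (ι → ℝ)) => f q.1 q.2.1 q.2.2)
    (hb : ∀ x y z, |f x y z| ≤ B) :
    ∫ z, ∫ g, ∫ g', f z g g' ∂(gpi ι) ∂(gpi ι) ∂(gpi ι) =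
      ∫ ω : J3 ι → ℝ, f (pu ω) (pv ω) (pw ω) ∂(gpi (J3 ι)) := by
  set F : (ι → ℝ) × ((ι → ℝ) × (ι → ℝ)) → ℝ := fun q => f q.1 q.2.1 q.2.2 with hF
  have I1 : Integrable F ((gpi ι).prod ((gpi ι).prod (gpi ι))) :=
    Integrable.mono' (integrable_const B) hf.aestronglyMeasurable
      (Filter.Eventually.of_forall fun q => hb _ _ _)
  have I2 : ∀ z, Integrable (fun p => F (z, p)) ((gpi ι).prod (gpi ι)) := fun z =>
    Integrable.mono' (integrable_const B)
      (hf.comp (continuous_const.prodMk continuous_id)).aestronglyMeasurable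
      (Filter.Eventually.of_forall fun q => hb _ _ _)
  have e1 : ∫ ω : J3 ι → ℝ, f (pu ω) (pv ω) (pw ω) ∂(gpi (J3 ι)) =
      ∫ q, F q ∂((gpi ι).prod ((gpi ι).prod (gpi ι))) := by
    rw [← (mp3 (ι := ι)).map_eq, integral_map (mp3 (ι := ι)).measurable.aemeasurable
      hf.aestronglyMeasurable]
  rw [e1, integral_prod _ I1]
  refine integral_congr_ae (Filter.Eventually.of_forall fun z => ?_)
  simp only
  rw [integral_prod _ (I2 z)]

end gen

section sk

variable (n : ℕ) (β : ℝ)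

lemma gibbs_nonneg (g : Pair n → ℝ) (σ : Fin n → ℤˣ) : 0 ≤ gibbs n β g σ := by
  unfold gibbs
  rw [partitionFn_eq]
  exact div_nonneg (Real.exp_pos _).le (zz_pos _ _ _).le

lemma gibbs_cont (σ : Fin n → ℤˣ) : Continuous fun g : Pair n → ℝ => gibbs n β g σ := by
  unfold gibbs
  simp_rw [partitionFn_eq]
  refine Continuous.div ?_ (zz_cont _ _) fun g => (zz_pos _ _ _).ne'
  unfold hamiltonian
  fun_prop

/-- the average of a function of two configurations over two Gibbs measures -/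
noncomputable def ga (f : (Fin n → ℤˣ) → (Fin n → ℤˣ) → ℝ) (g g' : Pair n → ℝ) : ℝ :=
  ∑ σ : Fin n → ℤˣ, ∑ τ : Fin n → ℤˣ, f σ τ * gibbs n β g σ * gibbs n β g' τ

lemma ga_cont (f : (Fin n → ℤˣ) → (Fin n → ℤˣ) → ℝ) {Y : Type*} [TopologicalSpace Y]
    {u v : Y → Pair n → ℝ} (hu : Continuous u) (hv : Continuous v) :
    Continuous fun y => ga n β f (u y) (v y) := by
  unfold ga
  refine continuous_finsetSum _ fun σ _ => continuous_finsetSum _ fun τ _ => ?_
  exact (((gibbs_cont n β σ).comp hu).const_mul _).mul ((gibbs_cont n β τ).comp hv)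

lemma ga_const (c : ℝ) (g g' : Pair n → ℝ) : ga n β (fun _ _ => c) g g' = c := by
  unfold ga
  simp_rw [mul_assoc, ← Finset.mul_sum]
  have h1 : ∀ σ : Fin n → ℤˣ, ∑ τ : Fin n → ℤˣ, gibbs n β g' τ = 1 := fun _ =>
    gibbs_one n β g'
  simp_rw [gibbs_one n β g', mul_one, gibbs_one n β g, mul_one]

lemma ga_mono {f h : (Fin n → ℤˣ) → (Fin n → ℤˣ) → ℝ} (hfh : ∀ σ τ, f σ τ ≤ h σ τ)
    (g g' : Pair n → ℝ) : ga n β f g g' ≤ ga n β h g g' := by
  unfold ga
  refine Finset.sum_le_sum fun σ _ => Finset.sum_le_sum fun τ _ => ?_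
  exact mul_le_mul_of_nonneg_right (mul_le_mul_of_nonneg_right (hfh σ τ)
    (gibbs_nonneg n β g σ)) (gibbs_nonneg n β g' τ)

lemma abs_ga_le {f : (Fin n → ℤˣ) → (Fin n → ℤˣ) → ℝ} {B : ℝ} (hf : ∀ σ τ, |f σ τ| ≤ B)
    (g g' : Pair n → ℝ) : |ga n β f g g'| ≤ B := by
  rw [abs_le]
  constructor
  · have h := ga_mono n β (f := fun _ _ => -B) (h := f) (fun σ τ => (abs_le.1 (hf σ τ)).1) g g'
    rwa [ga_const] at h
  · have h := ga_mono n β (f := f) (h := fun _ _ => B) (fun σ τ => (abs_le.1 (hf σ τ)).2) g g'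
    rwa [ga_const] at h

lemma ga_add (f h : (Fin n → ℤˣ) → (Fin n → ℤˣ) → ℝ) (g g' : Pair n → ℝ) :
    ga n β (fun σ τ => f σ τ + h σ τ) g g' = ga n β f g g' + ga n β h g g' := by
  unfold ga
  rw [← Finset.sum_add_distrib]
  refine Finset.sum_congr rfl fun σ _ => ?_
  rw [← Finset.sum_add_distrib]
  exact Finset.sum_congr rfl fun τ _ => by ring

lemma ga_const_mul (c : ℝ) (f : (Fin n → ℤˣ) → (Fin n → ℤˣ) → ℝ) (g g' : Pair n → ℝ) :
    ga n β (fun σ τ => c * f σ τ) g g' = c * ga n β f g g' := by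
  unfold ga
  rw [Finset.mul_sum]
  refine Finset.sum_congr rfl fun σ _ => ?_
  rw [Finset.mul_sum]
  exact Finset.sum_congr rfl fun τ _ => by ring

/-- the average of a function of two configurations under two correlated copies -/
noncomputable def gm (f : (Fin n → ℤˣ) → (Fin n → ℤˣ) → ℝ) (t : ℝ) : ℝ :=
  ∫ z, ∫ g, ∫ g', ∑ σ : Fin n → ℤˣ, ∑ τ : Fin n → ℤˣ,
    f σ τ * gibbs n β (mixed n t z g) σ * gibbs n β (mixed n t z g') τ
      ∂(disorder n) ∂(disorder n) ∂(disorder n)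

lemma gm_eq (f : (Fin n → ℤˣ) → (Fin n → ℤˣ) → ℝ) (t : ℝ) :
    gm n β f t = ∫ ω : J3 (Pair n) → ℝ,
      ga n β f (mix (Real.sqrt t) (Real.sqrt (1 - t)) (pu ω) (pv ω))
        (mix (Real.sqrt t) (Real.sqrt (1 - t)) (pu ω) (pw ω)) ∂(gpi (J3 (Pair n))) := by
  unfold gm
  rw [disorder_eq]
  have h := int_iter (ι := Pair n) (B := ∑ σ, ∑ τ, |f σ τ|)
    (f := fun z g g' => ga n β f (mix (Real.sqrt t) (Real.sqrt (1 - t)) z g)
        (mix (Real.sqrt t) (Real.sqrt (1 - t)) z g'))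
    (ga_cont n β f (cont_mix continuous_const continuous_const continuous_fst
      (continuous_fst.comp continuous_snd)) (cont_mix continuous_const continuous_const
        continuous_fst (continuous_snd.comp continuous_snd)))
    (fun x y z => abs_ga_le n β (fun σ τ => (Finset.single_le_sum (f := fun τ => |f σ τ|)
      (fun i _ => abs_nonneg _) (Finset.mem_univ τ)).trans
        (Finset.single_le_sum (f := fun σ => ∑ τ, |f σ τ|)
      (fun i _ => Finset.sum_nonneg fun _ _ => abs_nonneg _) (Finset.mem_univ σ))) _ _)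
  exact h

lemma ga_integrable (f : (Fin n → ℤˣ) → (Fin n → ℤˣ) → ℝ) (t : ℝ) :
    Integrable (fun ω : J3 (Pair n) → ℝ =>
      ga n β f (mix (Real.sqrt t) (Real.sqrt (1 - t)) (pu ω) (pv ω))
        (mix (Real.sqrt t) (Real.sqrt (1 - t)) (pu ω) (pw ω))) (gpi (J3 (Pair n))) := by
  refine Integrable.mono' (integrable_const (∑ σ, ∑ τ, |f σ τ|))
    (ga_cont n β f (cont_mix continuous_const continuous_const cont_pu cont_pv)
      (cont_mix continuous_const continuous_const cont_pu cont_pw)).aestronglyMeasurable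
    (Filter.Eventually.of_forall fun ω => ?_)
  exact abs_ga_le n β (fun σ τ => (Finset.single_le_sum (f := fun τ => |f σ τ|)
      (fun i _ => abs_nonneg _) (Finset.mem_univ τ)).trans
        (Finset.single_le_sum (f := fun σ => ∑ τ, |f σ τ|)
      (fun i _ => Finset.sum_nonneg fun _ _ => abs_nonneg _) (Finset.mem_univ σ))) _ _

lemma gm_mono {f h : (Fin n → ℤˣ) → (Fin n → ℤˣ) → ℝ} (hfh : ∀ σ τ, f σ τ ≤ h σ τ) (t : ℝ) :
    gm n β f t ≤ gm n β h t := by
  rw [gm_eq, gm_eq]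
  exact integral_mono (ga_integrable n β f t) (ga_integrable n β h t) fun ω =>
    ga_mono n β hfh _ _

lemma gm_add (f h : (Fin n → ℤˣ) → (Fin n → ℤˣ) → ℝ) (t : ℝ) :
    gm n β (fun σ τ => f σ τ + h σ τ) t = gm n β f t + gm n β h t := by
  rw [gm_eq, gm_eq, gm_eq, ← integral_add (ga_integrable n β f t) (ga_integrable n β h t)]
  exact integral_congr_ae (Filter.Eventually.of_forall fun ω => ga_add n β f h _ _)

lemma gm_const_mul (c : ℝ) (f : (Fin n → ℤˣ) → (Fin n → ℤˣ) → ℝ) (t : ℝ) :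
    gm n β (fun σ τ => c * f σ τ) t = c * gm n β f t := by
  rw [gm_eq, gm_eq, ← integral_const_mul]
  exact integral_congr_ae (Filter.Eventually.of_forall fun ω => ga_const_mul n β c f _ _)

lemma gm_const (c : ℝ) (t : ℝ) : gm n β (fun _ _ => c) t = c := by
  rw [gm_eq]
  simp_rw [ga_const]
  simp

/-- the indicator of a large overlap -/
noncomputable def big (δ : ℝ) (σ τ : Fin n → ℤˣ) : ℝ := by
  classical exact if δ ≤ overlap n σ τ ^ 2 then 1 else 0

lemma big_nonneg (δ : ℝ) (σ τ : Fin n → ℤˣ) : 0 ≤ big n δ σ τ := by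
  unfold big; split_ifs <;> norm_num

lemma big_le_one (δ : ℝ) (σ τ : Fin n → ℤˣ) : big n δ σ τ ≤ 1 := by
  unfold big; split_ifs <;> norm_num

lemma rq_sk (hn : 1 ≤ n) (s : (Fin n → ℤˣ) × (Fin n → ℤˣ)) :
    rq (ska n β) (β ^ 2) s = β ^ 2 * (n * overlap n s.1 s.2 ^ 2) := by
  have hn0 : (0 : ℝ) < n := by exact_mod_cast hn
  unfold rq
  rw [overlap_sq n hn]
  have e : ∀ p, ska n β s.1 p * ska n β s.2 p = β ^ 2 / n * (chi (ps p) s.1 * chi (ps p) s.2) := by
    intro p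
    unfold ska
    have h1 : β / Real.sqrt n * (β / Real.sqrt n) = β ^ 2 / n := by
      rw [div_mul_div_comm, Real.mul_self_sqrt hn0.le, sq]
    calc β / Real.sqrt n * chi (ps p) s.1 * (β / Real.sqrt n * chi (ps p) s.2) =
        (β / Real.sqrt n * (β / Real.sqrt n)) * (chi (ps p) s.1 * chi (ps p) s.2) := by ring
      _ = _ := by rw [h1]
  simp_rw [e]
  rw [← Finset.mul_sum]
  field_simp
  ring

lemma zz_rep (hn : 1 ≤ n) (κ φ : ℝ) (ω : J3 (Pair n) → ℝ) :
    zz (ra (ska n β) φ) (rc (ska n β) κ (β ^ 2) φ) ω =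
      ∑ σ : Fin n → ℤˣ, ∑ τ : Fin n → ℤˣ,
        Real.exp (β * hamiltonian n (mix (Real.cos φ) (Real.sin φ) (pu ω) (pv ω)) σ +
          β * hamiltonian n (mix (Real.cos φ) (Real.sin φ) (pu ω) (pw ω)) τ +
          κ / 2 * Real.sin φ ^ 2 * (β ^ 2 * (n * overlap n σ τ ^ 2))) := by
  unfold zz
  rw [Fintype.sum_prod_type]
  refine Finset.sum_congr rfl fun σ _ => Finset.sum_congr rfl fun τ _ => ?_
  unfold wt rc
  rw [rq_sk n β hn, ← ska_sum, ← ska_sum]
  congr 2
  rw [Fintype.sum_sum_type, Fintype.sum_sum_type]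
  simp only [ra, Sum.elim_inl, Sum.elim_inr, mix, pu, pv, pw]
  rw [← Finset.sum_add_distrib, ← Finset.sum_add_distrib, ← Finset.sum_add_distrib]
  exact Finset.sum_congr rfl fun p _ => by ring

/-- the pointwise inequality -/
lemma big_le (hn : 1 ≤ n) {κ : ℝ} (hκ0 : 0 ≤ κ) (hκ1 : κ ≤ 1) (φ δ : ℝ)
    (ω : J3 (Pair n) → ℝ) :
    ga n β (big n δ) (mix (Real.cos φ) (Real.sin φ) (pu ω) (pv ω))
        (mix (Real.cos φ) (Real.sin φ) (pu ω) (pw ω)) ≤
      Real.exp (-(κ * (freeEnergy n β (mix (Real.cos φ) (Real.sin φ) (pu ω) (pv ω)) +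
        freeEnergy n β (mix (Real.cos φ) (Real.sin φ) (pu ω) (pw ω))) +
        κ * (κ / 2 * Real.sin φ ^ 2 * (β ^ 2 * (n * δ))))) *
      zp κ (ra (ska n β) φ) (rc (ska n β) κ (β ^ 2) φ) ω := by
  obtain ⟨x, hx⟩ : ∃ x, x = mix (Real.cos φ) (Real.sin φ) (pu ω) (pv ω) := ⟨_, rfl⟩
  obtain ⟨y, hy⟩ : ∃ y, y = mix (Real.cos φ) (Real.sin φ) (pu ω) (pw ω) := ⟨_, rfl⟩
  obtain ⟨A, hA⟩ : ∃ A, A = ga n β (big n δ) x y := ⟨_, rfl⟩
  have hA1 : A ≤ 1 := by
    rw [hA]
    have := ga_mono n β (f := big n δ) (h := fun _ _ => 1) (fun σ τ => big_le_one n δ σ τ) x y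
    rwa [ga_const] at this
  have hZ1 : 0 < partitionFn n β x := by rw [partitionFn_eq]; exact zz_pos _ _ _
  have hZ2 : 0 < partitionFn n β y := by rw [partitionFn_eq]; exact zz_pos _ _ _
  obtain ⟨w, hw⟩ : ∃ w, w = κ / 2 * Real.sin φ ^ 2 * (β ^ 2 * (n * δ)) := ⟨_, rfl⟩
  rw [← hx, ← hy, ← hA, ← hw]
  rcases le_or_gt A 0 with h0 | h0
  · exact h0.trans (mul_nonneg (Real.exp_pos _).le (zp_pos _ _ _ _).le)
  have hcoef : 0 ≤ κ / 2 * Real.sin φ ^ 2 * β ^ 2 * n := by positivity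
  have key : partitionFn n β x * partitionFn n β y * A * Real.exp w ≤
      zz (ra (ska n β) φ) (rc (ska n β) κ (β ^ 2) φ) ω := by
    rw [zz_rep n β hn, ← hx, ← hy, hA]
    unfold ga
    rw [Finset.mul_sum, Finset.sum_mul]
    refine Finset.sum_le_sum fun σ _ => ?_
    rw [Finset.mul_sum, Finset.sum_mul]
    refine Finset.sum_le_sum fun τ _ => ?_
    unfold gibbs
    have e : partitionFn n β x * partitionFn n β y *
        (big n δ σ τ * (Real.exp (β * hamiltonian n x σ) / partitionFn n β x) *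
          (Real.exp (β * hamiltonian n y τ) / partitionFn n β y)) * Real.exp w =
        big n δ σ τ * Real.exp (β * hamiltonian n x σ + β * hamiltonian n y τ + w) := by
      rw [Real.exp_add, Real.exp_add]
      field_simp
    rw [e]
    unfold big
    split_ifs with h
    · rw [one_mul]
      refine Real.exp_le_exp.2 ?_
      have := mul_le_mul_of_nonneg_left h hcoef
      rw [hw]
      nlinarith [this]
    · rw [zero_mul]
      exact (Real.exp_pos _).le
  have hlog : Real.log (partitionFn n β x * partitionFn n β y * A * Real.exp w) =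
      freeEnergy n β x + freeEnergy n β y + Real.log A + w := by
    rw [Real.log_mul (by positivity) (Real.exp_pos _).ne', Real.log_exp,
      Real.log_mul (by positivity) h0.ne', Real.log_mul hZ1.ne' hZ2.ne']
    rfl
  have h2 := Real.log_le_log (by positivity) key
  rw [hlog] at h2
  have h3 : Real.log A ≤ κ * Real.log A := by
    have : Real.log A ≤ 0 := Real.log_nonpos h0.le hA1
    nlinarith
  have h4 := mul_le_mul_of_nonneg_left h2 hκ0
  unfold zp
  rw [← Real.exp_add]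
  calc A = Real.exp (Real.log A) := (Real.exp_log h0).symm
    _ ≤ _ := Real.exp_le_exp.2 (by linarith)

lemma freeEnergy_cont : Continuous (freeEnergy n β) := (freeEnergy_dom n β).cont

lemma int_ind (y : ℝ) {u : (J3 (Pair n) → ℝ) → Pair n → ℝ}
    (hu : MeasurePreserving u (gpi (J3 (Pair n))) (gpi (Pair n))) :
    ∫ ω, Set.indicator {ω | freeEnergy n β (u ω) ≤ y} (fun _ => (1 : ℝ)) ω
      ∂(gpi (J3 (Pair n))) = (disorder n).real {g | freeEnergy n β g ≤ y} := by
  have hm : MeasurableSet {g : Pair n → ℝ | freeEnergy n β g ≤ y} :=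
    measurableSet_le (freeEnergy_cont n β).measurable measurable_const
  have hm2 : MeasurableSet {ω : J3 (Pair n) → ℝ | freeEnergy n β (u ω) ≤ y} :=
    hu.measurable hm
  rw [integral_indicator hm2]
  simp only [integral_const, smul_eq_mul, mul_one, measureReal_restrict_apply_univ]
  have h := hu.measure_preimage hm.nullMeasurableSet
  rw [disorder_eq]
  unfold Measure.real
  rw [← h]
  rfl

/-- **The tail of the overlap.** -/
theorem tail_bound (hn : 1 ≤ n) {κ : ℝ} (hκ0 : 0 ≤ κ) (hκ1 : κ ≤ 1) {t : ℝ} (ht0 : 0 ≤ t)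
    (ht1 : t ≤ 1) (δ y : ℝ) :
    gm n β (big n δ) t ≤
      Real.exp (κ ^ 2 * β ^ 2 * (1 - t) / 2 * (1 - n * δ) - 2 * κ * y) *
          ∫ g, Real.exp (2 * κ * freeEnergy n β g) ∂(disorder n) +
        2 * (disorder n).real {g | freeEnergy n β g ≤ y} := by
  have hs1 : Real.sqrt t ≤ 1 := Real.sqrt_le_one.2 ht1
  have hs0 := Real.sqrt_nonneg t
  obtain ⟨φ, hφ⟩ : ∃ φ, φ = Real.arccos (Real.sqrt t) := ⟨_, rfl⟩
  have hcos : Real.cos φ = Real.sqrt t := by
    rw [hφ]; exact Real.cos_arccos (by linarith) hs1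
  have hsin : Real.sin φ = Real.sqrt (1 - t) := by
    rw [hφ, Real.sin_arccos, Real.sq_sqrt ht0]
  have hφ0 : 0 ≤ φ := by rw [hφ]; exact Real.arccos_nonneg _
  have hφ1 : φ ≤ Real.pi / 2 := by rw [hφ]; exact Real.arccos_le_pi_div_two.2 hs0
  have hsin2 : Real.sin φ ^ 2 = 1 - t := by rw [hsin, Real.sq_sqrt (by linarith)]
  have hcs : Real.cos φ ^ 2 + Real.sin φ ^ 2 = 1 := Real.cos_sq_add_sin_sq φ
  have mp1 : MeasurePreserving (fun ω : J3 (Pair n) → ℝ =>
      mix (Real.cos φ) (Real.sin φ) (pu ω) (pv ω)) (gpi (J3 (Pair n))) (gpi (Pair n)) :=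
    (mp_mix hcs).comp mp_uv
  have mp2 : MeasurePreserving (fun ω : J3 (Pair n) → ℝ =>
      mix (Real.cos φ) (Real.sin φ) (pu ω) (pw ω)) (gpi (J3 (Pair n))) (gpi (Pair n)) :=
    (mp_mix hcs).comp mp_uw
  rw [gm_eq, ← hcos, ← hsin]
  set a := Real.exp (-(2 * κ * y + κ * (κ / 2 * Real.sin φ ^ 2 * (β ^ 2 * (n * δ))))) with ha
  have hz := zp_dom κ (ra (ska n β) φ) (rc (ska n β) κ (β ^ 2) φ)
  have hm1 : MeasurableSet {ω : J3 (Pair n) → ℝ |
      freeEnergy n β (mix (Real.cos φ) (Real.sin φ) (pu ω) (pv ω)) ≤ y} :=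
    measurableSet_le ((freeEnergy_cont n β).measurable.comp mp1.measurable) measurable_const
  have hm2 : MeasurableSet {ω : J3 (Pair n) → ℝ |
      freeEnergy n β (mix (Real.cos φ) (Real.sin φ) (pu ω) (pw ω)) ≤ y} :=
    measurableSet_le ((freeEnergy_cont n β).measurable.comp mp2.measurable) measurable_const
  have i1 : Integrable (Set.indicator {ω : J3 (Pair n) → ℝ |
      freeEnergy n β (mix (Real.cos φ) (Real.sin φ) (pu ω) (pv ω)) ≤ y} (fun _ => (1 : ℝ)))
      (gpi (J3 (Pair n))) := (integrable_const (1 : ℝ)).indicator hm1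
  have i2 : Integrable (Set.indicator {ω : J3 (Pair n) → ℝ |
      freeEnergy n β (mix (Real.cos φ) (Real.sin φ) (pu ω) (pw ω)) ≤ y} (fun _ => (1 : ℝ)))
      (gpi (J3 (Pair n))) := (integrable_const (1 : ℝ)).indicator hm2
  have i3 : Integrable (fun ω => a * zp κ (ra (ska n β) φ) (rc (ska n β) κ (β ^ 2) φ) ω)
      (gpi (J3 (Pair n))) := (hz.const_mul a).integrable
  have h0 : Integrable (fun ω : J3 (Pair n) → ℝ =>
      ga n β (big n δ) (mix (Real.cos φ) (Real.sin φ) (pu ω) (pv ω))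
        (mix (Real.cos φ) (Real.sin φ) (pu ω) (pw ω))) (gpi (J3 (Pair n))) := by
    rw [hcos, hsin]; exact ga_integrable n β (big n δ) t
  have h1 := integral_mono h0 ((i3.add i1).add i2) (fun ω => by
    simp only [Pi.add_apply]
    have hzp := (zp_pos κ (ra (ska n β) φ) (rc (ska n β) κ (β ^ 2) φ) ω).le
    have p1 : 0 ≤ a * zp κ (ra (ska n β) φ) (rc (ska n β) κ (β ^ 2) φ) ω :=
      mul_nonneg (Real.exp_pos _).le hzp
    have p2 : 0 ≤ Set.indicator {ω : J3 (Pair n) → ℝ |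
      freeEnergy n β (mix (Real.cos φ) (Real.sin φ) (pu ω) (pv ω)) ≤ y}
        (fun _ => (1 : ℝ)) ω := Set.indicator_nonneg (fun _ _ => zero_le_one) _
    have p3 : 0 ≤ Set.indicator {ω : J3 (Pair n) → ℝ |
      freeEnergy n β (mix (Real.cos φ) (Real.sin φ) (pu ω) (pw ω)) ≤ y}
        (fun _ => (1 : ℝ)) ω := Set.indicator_nonneg (fun _ _ => zero_le_one) _
    have p4 : ga n β (big n δ) (mix (Real.cos φ) (Real.sin φ) (pu ω) (pv ω))
        (mix (Real.cos φ) (Real.sin φ) (pu ω) (pw ω)) ≤ 1 := by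
      have := ga_mono n β (f := big n δ) (h := fun _ _ => 1) (fun σ τ => big_le_one n δ σ τ)
        (mix (Real.cos φ) (Real.sin φ) (pu ω) (pv ω))
        (mix (Real.cos φ) (Real.sin φ) (pu ω) (pw ω))
      rwa [ga_const] at this
    by_cases c1 : freeEnergy n β (mix (Real.cos φ) (Real.sin φ) (pu ω) (pv ω)) ≤ y
    · have : Set.indicator {ω : J3 (Pair n) → ℝ |
        freeEnergy n β (mix (Real.cos φ) (Real.sin φ) (pu ω) (pv ω)) ≤ y}
        (fun _ => (1 : ℝ)) ω = 1 := by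
        rw [Set.indicator_of_mem]
        exact c1
      linarith
    by_cases c2 : freeEnergy n β (mix (Real.cos φ) (Real.sin φ) (pu ω) (pw ω)) ≤ y
    · have : Set.indicator {ω : J3 (Pair n) → ℝ |
        freeEnergy n β (mix (Real.cos φ) (Real.sin φ) (pu ω) (pw ω)) ≤ y}
        (fun _ => (1 : ℝ)) ω = 1 := by
        rw [Set.indicator_of_mem]
        exact c2
      linarith
    have p5 := big_le n β hn hκ0 hκ1 φ δ ω
    have p6 : Real.exp (-(κ * (freeEnergy n β (mix (Real.cos φ) (Real.sin φ) (pu ω) (pv ω)) +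
        freeEnergy n β (mix (Real.cos φ) (Real.sin φ) (pu ω) (pw ω))) +
        κ * (κ / 2 * Real.sin φ ^ 2 * (β ^ 2 * (n * δ))))) ≤ a := by
      rw [ha]
      refine Real.exp_le_exp.2 ?_
      push Not at c1 c2
      have := mul_le_mul_of_nonneg_left (add_le_add c1.le c2.le) hκ0
      linarith
    have p7 := mul_le_mul_of_nonneg_right p6 hzp
    linarith)
  rw [integral_add' (i3.add i1) i2, integral_add' i3 i1, integral_const_mul,
    int_ind n β y mp1, int_ind n β y mp2] at h1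
  have h2 := rep_le (ska n β) hκ0 hκ1 (β ^ 2) hφ0 hφ1
  have e2 : ∫ g : J3 (Pair n) → ℝ, Real.exp (2 * κ * Real.log (zz (ska n β) (fun _ => 0)
      (fun p => g (Sum.inl p)))) ∂(gpi (J3 (Pair n))) =
      ∫ g, Real.exp (2 * κ * freeEnergy n β g) ∂(disorder n) := by
    have e3 : ∀ g : J3 (Pair n) → ℝ, Real.exp (2 * κ * Real.log (zz (ska n β) (fun _ => 0)
      (fun p => g (Sum.inl p)))) = (fun g => Real.exp (2 * κ * freeEnergy n β g)) (pu g) := by
      intro g
      simp only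
      rw [freeEnergy_eq]
      rfl
    simp_rw [e3]
    have hc : Continuous fun g : Pair n → ℝ => Real.exp (2 * κ * freeEnergy n β g) :=
      Real.continuous_exp.comp ((freeEnergy_cont n β).const_mul (2 * κ))
    rw [disorder_eq, ← (mp_pu (ι := Pair n)).map_eq,
      integral_map (mp_pu (ι := Pair n)).measurable.aemeasurable hc.aestronglyMeasurable]
  rw [e2] at h2
  have h3 : a * ∫ ω, zp κ (ra (ska n β) φ) (rc (ska n β) κ (β ^ 2) φ) ω
      ∂(gpi (J3 (Pair n))) ≤ a * (Real.exp (κ * (κ * β ^ 2 * (Real.sin φ ^ 2 / 2))) *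
        ∫ g, Real.exp (2 * κ * freeEnergy n β g) ∂(disorder n)) :=
    mul_le_mul_of_nonneg_left h2 (Real.exp_pos _).le
  have e4 : a * (Real.exp (κ * (κ * β ^ 2 * (Real.sin φ ^ 2 / 2))) *
        ∫ g, Real.exp (2 * κ * freeEnergy n β g) ∂(disorder n)) =
      Real.exp (κ ^ 2 * β ^ 2 * (1 - t) / 2 * (1 - n * δ) - 2 * κ * y) *
        ∫ g, Real.exp (2 * κ * freeEnergy n β g) ∂(disorder n) := by
    rw [← mul_assoc, ha, ← Real.exp_add, hsin2]
    congr 2
    ring
  rw [e4] at h3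
  linarith

end sk

end Vale.Agent.P146.H501
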